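import Vale.Agent.P227.Final

namespace Vale.Agent.Results.P227.LogBM

open MeasureTheory Vale.Agent.P227

/-- The logarithmic Brunn-Minkowski inequality for origin-symmetric convex bodies in every
dimension. -/
theorem result (n : ℕ) (K L : Set (EuclideanSpace ℝ (Fin n))) (hK : SymmBody K) (hL : SymmBody L)
    (t : ℝ) (h0 : 0 ≤ t) (h1 : t ≤ 1) :
    volume K ^ (1 - t) * volume L ^ t ≤
      volume (wulff fun u => suppFn K u ^ (1 - t) * suppFn L u ^ t) :=
  logBM n K L hK hL t h0 h1

end Vale.Agent.Results.P227.LogBM
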